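import Vale.Agent.P183.R2.H577.Base

/-! P183: the cardinality row (digits to base `M`). -/

namespace Vale.Agent.P183.H577

open Matrix

/-- uniqueness of digits -/
theorem digits_eq (M : ℕ) : ∀ (n : ℕ) (a b : Fin n → ℕ), (∀ i, a i < M) → (∀ i, b i < M) →
    ∑ i, a i * M ^ (i : ℕ) = ∑ i, b i * M ^ (i : ℕ) → a = b := by
  intro n
  induction n with
  | zero => intro a b _ _ _; exact Subsingleton.elim _ _
  | succ n ih =>
    intro a b ha hb h
    rw [Fin.sum_univ_succ, Fin.sum_univ_succ] at h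
    simp only [Fin.val_zero, pow_zero, mul_one, Fin.val_succ, pow_succ, ← mul_assoc,
      ← Finset.sum_mul] at h
    have hM : 0 < M := lt_of_le_of_lt (Nat.zero_le _) (ha 0)
    have h0 : a 0 = b 0 := by
      have h1 := congrArg (· % M) h
      simpa [Nat.add_mul_mod_self_right, Nat.mod_eq_of_lt (ha 0), Nat.mod_eq_of_lt (hb 0)] using h1
    rw [h0] at h
    have h2 := Nat.eq_of_mul_eq_mul_right hM (Nat.add_left_cancel h)
    have h3 := ih (fun i => a i.succ) (fun i => b i.succ) (fun i => ha _) (fun i => hb _) h2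
    funext i
    refine Fin.cases h0 (fun i => ?_) i
    exact congrFun h3 i

/-- the sizes `c * M ^ i` separate products of powers -/
theorem prod_digits {n : ℕ} (c M : ℕ) (hc : 0 < c) (f g : Fin n → ℕ) (hf : ∀ i, 0 < f i)
    (hf' : ∀ i, f i ≤ M) (hg : ∀ i, 0 < g i) (hg' : ∀ i, g i ≤ M)
    (h : ∏ i, f i ^ (c * M ^ (i : ℕ)) = ∏ i, g i ^ (c * M ^ (i : ℕ))) : f = g := by
  funext i
  refine Nat.eq_of_factorization_eq (hf i).ne' (hg i).ne' fun q => ?_
  have h1 := congrArg (fun x => x.factorization q) h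
  rw [Nat.factorization_prod (fun x _ => pow_ne_zero _ (hf x).ne'),
    Nat.factorization_prod (fun x _ => pow_ne_zero _ (hg x).ne')] at h1
  simp only [Nat.factorization_pow, Finsupp.finsetSum_apply, Finsupp.smul_apply, smul_eq_mul,
    mul_assoc, ← Finset.mul_sum] at h1
  have h2 := Nat.eq_of_mul_eq_mul_left hc h1
  have h3 := digits_eq M n (fun i => (f i).factorization q) (fun i => (g i).factorization q)
    (fun i => (Nat.factorization_lt q (hf i).ne').trans_le (hf' i))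
    (fun i => (Nat.factorization_lt q (hg i).ne').trans_le (hg' i))
    (by simpa only [mul_comm] using h2)
  exact congrFun h3 i

/-- cardinality of a product set over the blocks -/
theorem card_blocks {R : Type} [Finite R] {n c M : ℕ} (B : Fin n → Set R) :
    Nat.card {w : (Σ i : Fin n, Fin (c * M ^ (i : ℕ))) → R | ∀ a, w a ∈ B a.1} =
      ∏ i : Fin n, Nat.card (B i) ^ (c * M ^ (i : ℕ)) := by
  have e1 : {w : (Σ i : Fin n, Fin (c * M ^ (i : ℕ))) → R | ∀ a, w a ∈ B a.1} ≃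
      ((a : Σ i : Fin n, Fin (c * M ^ (i : ℕ))) → B a.1) :=
    { toFun := fun w a => ⟨w.1 a, w.2 a⟩
      invFun := fun w => ⟨fun a => (w a).1, fun a => (w a).2⟩
      left_inv := fun _ => rfl
      right_inv := fun _ => rfl }
  rw [Nat.card_congr e1, Nat.card_pi, Fintype.prod_sigma]
  refine Finset.prod_congr rfl fun i _ => ?_
  simp

variable {R : Type} [Ring R] [Finite R] {n : ℕ}

/-- ROW 3 (card). -/
theorem card_row (e : Fin n → R) (he : ∀ i, e i * e i = e i) (ho : ∀ i j, i ≠ j → e i * e j = 0)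
    (hs : ∑ i, e i = 1) (c M : ℕ) (hc : 3 ≤ c) (hM : Nat.card R ≤ M)
    (S : Subring R) (hS : ∀ i x, e i * x * e i ∈ S)
    (g : (Matrix (Σ i : Fin n, Fin (c * M ^ (i : ℕ))) (Σ i : Fin n, Fin (c * M ^ (i : ℕ))) R)ˣ)
    (hg : g ∈ gl e ⊤ Sigma.fst)
    (h : ∀ a a' : (Σ i : Fin n, Fin (c * M ^ (i : ℕ))), a ≠ a' → a.1 = a'.1 →
      ∀ r, e a.1 * r = r → r * e a.1 = r →
        Ent e S Sigma.fst (g⁻¹.1 * Matrix.single a a' r * g.1)) :
    g⁻¹ ∈ gl e S Sigma.fst := by
  classical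
  have hM0 : 0 < M := Nat.card_pos.trans_le hM
  have hgi : g⁻¹ ∈ gl e ⊤ Sigma.fst := (gl e ⊤ Sigma.fst).inv_mem hg
  rw [gl, mem_grp] at hg hgi ⊢
  have hgg : g.1 * g⁻¹.1 = 1 := g.mul_inv
  have hgg' : g⁻¹.1 * g.1 = 1 := g.inv_mul
  -- another element of the same block
  have hother : ∀ a : (Σ i : Fin n, Fin (c * M ^ (i : ℕ))), ∃ a' : (Σ i : Fin n, Fin (c * M ^ (i : ℕ))),
      a ≠ a' ∧ a.1 = a'.1 := by
    intro a
    have h2 : 2 ≤ c * M ^ (a.1 : ℕ) := by
      calc 2 ≤ c * 1 := by omega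
        _ ≤ c * M ^ (a.1 : ℕ) := Nat.mul_le_mul_left _ (Nat.pos_of_ne_zero (pow_ne_zero _ hM0.ne'))
    by_cases ha : (a.2 : ℕ) = 0
    · refine ⟨⟨a.1, ⟨1, by omega⟩⟩, fun hh => ?_, rfl⟩
      rw [hh] at ha
      simp at ha
    · refine ⟨⟨a.1, ⟨0, by omega⟩⟩, fun hh => ?_, rfl⟩
      apply ha
      rw [hh]
  intro a b
  refine ⟨?_, hgi a b |>.2⟩
  -- the column module of type `b.1`
  let T : Fin n → Set R := fun i => {x | x ∈ S ∧ e i * x = x ∧ x * e b.1 = x}
  let Nj : Set ((Σ i : Fin n, Fin (c * M ^ (i : ℕ))) → R) := {v | ∀ a, v a ∈ T a.1}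
  let W : Set ((Σ i : Fin n, Fin (c * M ^ (i : ℕ))) → R) := (fun v => g.1 *ᵥ v) '' Nj
  have hN0 : (0 : (Σ i : Fin n, Fin (c * M ^ (i : ℕ))) → R) ∈ Nj := fun a =>
    ⟨S.zero_mem, by simp, by simp⟩
  have hW0 : (0 : (Σ i : Fin n, Fin (c * M ^ (i : ℕ))) → R) ∈ W :=
    ⟨0, hN0, Matrix.mulVec_zero _⟩
  have hWadd : ∀ w w', w ∈ W → w' ∈ W → w + w' ∈ W := by
    rintro _ _ ⟨v, hv, rfl⟩ ⟨v', hv', rfl⟩
    refine ⟨v + v', fun a => ⟨S.add_mem (hv a).1 (hv' a).1, ?_, ?_⟩, Matrix.mulVec_add _ _ _⟩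
    · rw [Pi.add_apply, mul_add, (hv a).2.1, (hv' a).2.1]
    · rw [Pi.add_apply, add_mul, (hv a).2.2, (hv' a).2.2]
  have hW1 : ∀ w ∈ W, ∀ a, e a.1 * w a = w a ∧ w a * e b.1 = w a := by
    rintro _ ⟨v, hv, rfl⟩ a
    have h1 : g.1 *ᵥ v = v + (g.1 - 1) *ᵥ v := by
      rw [Matrix.sub_mulVec, Matrix.one_mulVec, add_sub_cancel]
    simp only [h1, Pi.add_apply, mul_add, add_mul, (hv a).2.1, (hv a).2.2]
    refine ⟨congrArg _ ?_, congrArg _ ?_⟩
    · simp only [Matrix.mulVec, dotProduct, Finset.mul_sum]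
      refine Finset.sum_congr rfl fun d _ => ?_
      rw [← mul_assoc, (hg a d).2.1]
    · simp only [Matrix.mulVec, dotProduct, Finset.sum_mul]
      refine Finset.sum_congr rfl fun d _ => ?_
      rw [mul_assoc, (hv d).2.2]
  have hWt : ∀ w ∈ W, ∀ a a', a ≠ a' → a.1 = a'.1 → Pi.single a (e a.1 * w a') ∈ W := by
    rintro _ ⟨v, hv, rfl⟩ a a' haa' hp
    have hE := h a a' haa' hp (e a.1) (he _) (he _)
    refine ⟨(g⁻¹.1 * Matrix.single a a' (e a.1) * g.1) *ᵥ v, fun d => ⟨?_, ?_, ?_⟩, ?_⟩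
    · simp only [Matrix.mulVec, dotProduct]
      exact S.sum_mem fun x _ => S.mul_mem (hE d x).1 (hv x).1
    · simp only [Matrix.mulVec, dotProduct, Finset.mul_sum]
      refine Finset.sum_congr rfl fun x _ => ?_
      rw [← mul_assoc, (hE d x).2.1]
    · simp only [Matrix.mulVec, dotProduct, Finset.sum_mul]
      refine Finset.sum_congr rfl fun x _ => ?_
      rw [mul_assoc, (hv x).2.2]
    · show g.1 *ᵥ ((g⁻¹.1 * Matrix.single a a' (e a.1) * g.1) *ᵥ v) = _
      rw [Matrix.mulVec_mulVec, ← mul_assoc, ← mul_assoc, hgg, one_mul, ← Matrix.mulVec_mulVec]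
      funext d
      simp only [Matrix.mulVec, dotProduct, Matrix.single_apply, Pi.single_apply]
      by_cases hd : d = a
      · subst hd
        simp
      · have hd' : ¬ a = d := fun hh => hd hh.symm
        simp [hd, hd']
  let B : Fin n → Set R := fun i => {x | ∀ a : (Σ i : Fin n, Fin (c * M ^ (i : ℕ))), a.1 = i →
    (Pi.single a x : (Σ i : Fin n, Fin (c * M ^ (i : ℕ))) → R) ∈ W}
  have hWB : W = {w | ∀ a, w a ∈ B a.1} := by
    ext w
    constructor
    · intro hw a a' haa'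
      have key : ∀ a'', a'' ≠ a → a''.1 = a.1 →
          (Pi.single a'' (w a) : (Σ i : Fin n, Fin (c * M ^ (i : ℕ))) → R) ∈ W := by
        intro a'' h1 h2
        have := hWt w hw a'' a h1 h2
        rwa [h2, (hW1 w hw a).1] at this
      by_cases hc' : a' = a
      · subst hc'
        obtain ⟨a'', h1, h2⟩ := hother a'
        have h3 := hWt _ (key a'' h1.symm h2.symm) a' a'' h1 h2
        rwa [Pi.single_eq_same, (hW1 w hw a').1] at h3
      · exact key a' hc' haa'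
    · intro hw
      have hsum : ∀ s : Finset (Σ i : Fin n, Fin (c * M ^ (i : ℕ))),
          ∑ a ∈ s, (Pi.single a (w a) : (Σ i : Fin n, Fin (c * M ^ (i : ℕ))) → R) ∈ W := by
        intro s
        induction s using Finset.induction_on with
        | empty => simpa using hW0
        | insert a s ha ih =>
          rw [Finset.sum_insert ha]
          exact hWadd _ _ (hw a a rfl) ih
      have := hsum Finset.univ
      rwa [Finset.univ_sum_single] at this
  have hcard : ∏ i : Fin n, Nat.card (B i) ^ (c * M ^ (i : ℕ)) =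
      ∏ i : Fin n, Nat.card (T i) ^ (c * M ^ (i : ℕ)) := by
    rw [← card_blocks B, ← card_blocks T, ← hWB]
    refine Nat.card_image_of_injective (fun v v' hvv => ?_) Nj
    have h1 := congrArg (fun u => g⁻¹.1 *ᵥ u) hvv
    simpa only [Matrix.mulVec_mulVec, hgg', Matrix.one_mulVec] using h1
  have hle : ∀ s : Set R, Nat.card s ≤ M := fun s =>
    (Nat.card_le_card_of_injective _ (Subtype.val_injective (p := fun x => x ∈ s))).trans hM
  have hBT := congrFun (prod_digits c M (by omega) (fun i => Nat.card (B i)) (fun i => Nat.card (T i))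
    (fun i => Nat.card_pos_iff.2 ⟨⟨⟨0, fun a _ => by rw [Pi.single_zero]; exact hW0⟩⟩, inferInstance⟩)
    (fun i => hle _)
    (fun i => Nat.card_pos_iff.2 ⟨⟨⟨0, S.zero_mem, by simp, by simp⟩⟩, inferInstance⟩)
    (fun i => hle _) hcard) b.1
  have hsub : B b.1 ⊆ T b.1 := by
    intro x hx
    have h1 := hW1 _ (hx b rfl) b
    rw [Pi.single_eq_same] at h1
    refine ⟨?_, h1⟩
    have h2 := hS b.1 x
    rwa [h1.1, h1.2] at h2
  have heq : B b.1 = T b.1 := Set.eq_of_subset_of_ncard_le hsub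
    (by rw [← Nat.card_coe_set_eq, ← Nat.card_coe_set_eq]; exact hBT.ge) (Set.toFinite _)
  have heS : e b.1 ∈ S := by
    have := hS b.1 1
    rwa [mul_one, he] at this
  have hmem : e b.1 ∈ B b.1 := by
    rw [heq]
    exact ⟨heS, he _, he _⟩
  obtain ⟨v, hv, hv'⟩ := hmem b rfl
  have hv2 : v = g⁻¹.1 *ᵥ Pi.single b (e b.1) := by
    rw [← hv']
    show v = g⁻¹.1 *ᵥ (g.1 *ᵥ v)
    rw [Matrix.mulVec_mulVec, hgg', Matrix.one_mulVec]
  have hv3 : v a = g⁻¹.1 a b * e b.1 := by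
    rw [hv2]
    simp only [Matrix.mulVec, dotProduct, Pi.single_apply]
    simp
  have hfin : (g⁻¹.1 - 1) a b = v a - (1 : Matrix _ _ R) a b * e b.1 := by
    rw [hv3, ← sub_mul, ← Matrix.sub_apply]
    exact ((hgi a b).2.2).symm
  rw [hfin]
  refine S.sub_mem (hv a).1 (S.mul_mem ?_ heS)
  rw [Matrix.one_apply]
  split
  · exact S.one_mem
  · exact S.zero_mem

end Vale.Agent.P183.H577
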